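import Vale.Agent.P088.H198.Defs

/-!
# P088, local rigidity: rows NORM0 and NORM1
-/

open scoped ContDiff Matrix
open Set

noncomputable section

namespace Vale.Agent.P088.LR.H72

variable {n : ℕ}

theorem iter_pi_le {E : Type*} [NormedAddCommGroup E] [NormedSpace ℝ E] {ι : Type*} [Fintype ι]
    {f : E → ι → ℝ} (hf : ContDiff ℝ ∞ f) (l : ℕ) (x : E) {δ : ℝ} (hδ : 0 ≤ δ)
    (h : ∀ a, ‖iteratedFDeriv ℝ l (fun y => f y a) x‖ ≤ δ) : ‖iteratedFDeriv ℝ l f x‖ ≤ δ := by
  refine ContinuousMultilinearMap.opNorm_le_bound hδ fun m => ?_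
  have hp : 0 ≤ δ * ∏ i, ‖m i‖ := by positivity
  refine (pi_norm_le_iff_of_nonneg hp).2 fun a => ?_
  have h1 : iteratedFDeriv ℝ l ((ContinuousLinearMap.proj (R := ℝ) (φ := fun _ : ι => ℝ) a) ∘ f) x
      = (ContinuousLinearMap.proj (R := ℝ) (φ := fun _ : ι => ℝ) a).compContinuousMultilinearMap
        (iteratedFDeriv ℝ l f x) :=
    ContinuousLinearMap.iteratedFDeriv_comp_left _ (hf.contDiffAt (x := x)) (by exact_mod_cast le_top)
  have h2 : iteratedFDeriv ℝ l f x m a = iteratedFDeriv ℝ l (fun y => f y a) x m := by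
    have := congrArg (fun T => T m) h1
    exact this.symm
  rw [h2]
  exact (ContinuousMultilinearMap.le_opNorm _ _).trans
    (mul_le_mul_of_nonneg_right (h a) (by positivity))

theorem iter_const_sub {E : Type*} [NormedAddCommGroup E] [NormedSpace ℝ E] {f : E → ℝ}
    (hf : ContDiff ℝ ∞ f) {l : ℕ} (hl : 1 ≤ l) (c : ℝ) (x : E) :
    iteratedFDeriv ℝ l (fun y => f y - c) x = iteratedFDeriv ℝ l f x := by
  have h1 : (fun y => f y - c) = f - (fun _ => c) := rfl
  rw [h1, iteratedFDeriv_sub_apply (hf.of_le (by exact_mod_cast le_top)).contDiffAt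
    contDiff_const.contDiffAt]
  rw [iteratedFDeriv_const_of_ne (by omega)]
  simp

/-- Composition with a function which is smooth near a point and vanishes there. -/
theorem small_comp {ι : Type*} [Fintype ι] (t : Set (ι → ℝ)) (ht : IsOpen t) (p0 : ι → ℝ)
    (hp0 : p0 ∈ t) (Ψ : (ι → ℝ) → ℝ) (hΨ : ContDiffOn ℝ ∞ Ψ t) (hz : Ψ p0 = 0) (k : ℕ) (ε : ℝ)
    (hε : 0 < ε) : ∃ δ > 0, ∀ f : V n → ι → ℝ, ContDiff ℝ ∞ f →
      (∀ a, Cl k δ (fun x => f x a - p0 a)) → (∀ x, f x ∈ t) ∧ Cl k ε (fun x => Ψ (f x)) := by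
  -- a closed ball inside `t`
  obtain ⟨r, hr, hrt⟩ := Metric.isOpen_iff.1 ht p0 hp0
  have hrt' : Metric.closedBall p0 (r / 2) ⊆ t :=
    (Metric.closedBall_subset_ball (by linarith)).trans hrt
  -- bound of the derivatives of `Ψ`
  have hCe : ∃ C : ℝ, 0 ≤ C ∧ ∀ i ≤ k, ∀ p ∈ Metric.closedBall p0 (r / 2),
      ‖iteratedFDerivWithin ℝ i Ψ t p‖ ≤ C := by
    have h1 : ∀ i, ∃ C : ℝ, ∀ p ∈ Metric.closedBall p0 (r / 2),
        ‖iteratedFDerivWithin ℝ i Ψ t p‖ ≤ C := fun i =>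
      (isCompact_closedBall p0 (r / 2)).exists_bound_of_continuousOn
        ((hΨ.continuousOn_iteratedFDerivWithin (m := i) (by exact_mod_cast le_top)
          ht.uniqueDiffOn).mono hrt')
    choose C hC using h1
    refine ⟨∑ i ∈ Finset.range (k + 1), |C i|, by positivity, fun i hi p hp => ?_⟩
    refine (hC i p hp).trans ((le_abs_self _).trans ?_)
    exact Finset.single_le_sum (f := fun i => |C i|) (fun _ _ => abs_nonneg _)
      (Finset.mem_range.2 (by omega))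
  obtain ⟨C, hC0, hC⟩ := hCe
  -- continuity at `p0`
  have hcont : ContinuousAt Ψ p0 := (hΨ.continuousOn.continuousAt (ht.mem_nhds hp0))
  obtain ⟨δ₀, hδ₀, hδ₀'⟩ := Metric.continuousAt_iff.1 hcont ε hε
  set D : ℝ := min 1 (ε / (k.factorial * (C + 1))) with hD
  have hk : (0 : ℝ) < k.factorial := by exact_mod_cast Nat.factorial_pos k
  have hD0 : 0 < D := lt_min one_pos (by positivity)
  have hD1 : D ≤ 1 := min_le_left _ _
  have hDε : k.factorial * C * D ≤ ε := by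
    have h1 : D ≤ ε / (k.factorial * (C + 1)) := min_le_right _ _
    have h2 : k.factorial * C * D ≤ k.factorial * (C + 1) * (ε / (k.factorial * (C + 1))) := by
      refine mul_le_mul ?_ h1 hD0.le (by positivity)
      exact mul_le_mul_of_nonneg_left (by linarith) hk.le
    refine h2.trans (le_of_eq ?_)
    field_simp
  refine ⟨min (min (r / 2) (δ₀ / 2)) (D ^ k), by positivity, fun f hf hcl => ?_⟩
  have hdist : ∀ x, dist (f x) p0 ≤ min (r / 2) (δ₀ / 2) := by
    intro x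
    refine (dist_pi_le_iff (by positivity)).2 fun a => ?_
    have h1 := hcl a 0 (Nat.zero_le _) x
    rw [norm_iteratedFDeriv_zero] at h1
    rw [Real.dist_eq, ← Real.norm_eq_abs]
    exact h1.trans (min_le_left _ _)
  have hball : ∀ x, f x ∈ Metric.closedBall p0 (r / 2) := fun x =>
    Metric.mem_closedBall.2 ((hdist x).trans (min_le_left _ _))
  have hft : ∀ x, f x ∈ t := fun x => hrt' (hball x)
  refine ⟨hft, fun l hl x => ?_⟩
  rcases Nat.eq_zero_or_pos l with rfl | hl0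
  · rw [norm_iteratedFDeriv_zero]
    have h1 : dist (f x) p0 < δ₀ := lt_of_le_of_lt ((hdist x).trans (min_le_right _ _)) (by linarith)
    have h2 := hδ₀' h1
    rw [hz, dist_zero_right] at h2
    exact h2.le
  · have hrange : Set.range f ⊆ t := by rintro _ ⟨x, rfl⟩; exact hft x
    have key : ‖iteratedFDeriv ℝ l (Ψ ∘ f) x‖ ≤ l.factorial * C * D ^ l := by
      refine norm_iteratedFDeriv_comp_le' hrange ht.uniqueDiffOn hΨ hf
        (by exact_mod_cast le_top) x (fun i hi => hC i (hi.trans hl) _ (hball x)) ?_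
      intro i hi1 hi2
      refine iter_pi_le hf i x (by positivity) fun a => ?_
      have h1 := hcl a i (hi2.trans hl) x
      have h2 : ContDiff ℝ ∞ (fun y => f y a) := contDiff_pi.1 hf a
      rw [iter_const_sub h2 hi1] at h1
      refine h1.trans ((min_le_right _ _).trans ?_)
      exact pow_le_pow_of_le_one hD0.le hD1 (hi2.trans hl)
    refine key.trans (le_trans ?_ hDε)
    have h3 : (l.factorial : ℝ) ≤ k.factorial := by exact_mod_cast Nat.factorial_le hl
    have h4 : D ^ l ≤ D := by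
      calc D ^ l ≤ D ^ 1 := pow_le_pow_of_le_one hD0.le hD1 hl0
        _ = D := pow_one D
    refine mul_le_mul (mul_le_mul_of_nonneg_right h3 hC0) h4 (by positivity) (by positivity)

/-- Smoothness of determinants. -/
theorem cd_det {E : Type*} [NormedAddCommGroup E] [NormedSpace ℝ E] {κ : Type*} [Fintype κ]
    [DecidableEq κ] {M : E → Matrix κ κ ℝ} (h : ∀ i j, ContDiff ℝ ∞ (fun x => M x i j)) :
    ContDiff ℝ ∞ (fun x => (M x).det) := by
  simp only [Matrix.det_apply]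
  refine ContDiff.sum fun σ _ => ?_
  refine ContDiff.const_smul _ ?_
  exact contDiff_prod fun i _ => h _ _

theorem cd_adj {E : Type*} [NormedAddCommGroup E] [NormedSpace ℝ E] {κ : Type*} [Fintype κ]
    [DecidableEq κ] {M : E → Matrix κ κ ℝ} (h : ∀ i j, ContDiff ℝ ∞ (fun x => M x i j)) (i j : κ) :
    ContDiff ℝ ∞ (fun x => (M x).adjugate i j) := by
  simp only [Matrix.adjugate_apply]
  refine cd_det fun a b => ?_
  by_cases hab : a = j
  · subst hab
    simp only [Matrix.updateRow_self]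
    exact contDiff_const
  · simp only [Matrix.updateRow_ne hab]
    exact h a b

theorem cd_mul {E : Type*} [NormedAddCommGroup E] [NormedSpace ℝ E] {κ : Type*} [Fintype κ]
    {M N : E → Matrix κ κ ℝ} (h : ∀ i j, ContDiff ℝ ∞ (fun x => M x i j))
    (h' : ∀ i j, ContDiff ℝ ∞ (fun x => N x i j)) (i j : κ) :
    ContDiff ℝ ∞ (fun x => (M x * N x) i j) := by
  simp only [Matrix.mul_apply]
  exact ContDiff.sum fun k _ => (h i k).mul (h' k j)

theorem cl_mono {F : Type*} [NormedAddCommGroup F] [NormedSpace ℝ F] {k : ℕ} {a b : ℝ}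
    {f : V n → F} (h : Cl k a f) (hab : a ≤ b) : Cl k b f := fun l hl x => (h l hl x).trans hab

theorem exists_pos_le {β : Type*} [Finite β] (d : β → ℝ) (hd : ∀ b, 0 < d b) :
    ∃ δ > 0, ∀ b, δ ≤ d b := by
  have := Fintype.ofFinite β
  have hs : 0 ≤ ∑ b, (d b)⁻¹ := Finset.sum_nonneg fun b _ => (inv_pos.2 (hd b)).le
  refine ⟨(∑ b, (d b)⁻¹ + 1)⁻¹, by positivity, fun b => ?_⟩
  have h1 : (d b)⁻¹ ≤ ∑ b, (d b)⁻¹ + 1 :=
    (Finset.single_le_sum (f := fun b => (d b)⁻¹) (fun b _ => (inv_pos.2 (hd b)).le)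
      (Finset.mem_univ b)).trans (by linarith)
  have h2 := inv_anti₀ (inv_pos.2 (hd b)) h1
  rwa [inv_inv] at h2

/-- Row NORM0. -/
theorem norm0 : RowNORM0 := by
  intro n k ε hε
  let p0 : Fin n × Fin n → ℝ := fun a => (1 : Matrix (Fin n) (Fin n) ℝ) a.1 a.2
  let M : (Fin n × Fin n → ℝ) → Matrix (Fin n) (Fin n) ℝ := fun p => Matrix.of fun i j => p (i, j)
  have hM : ∀ i j, ContDiff ℝ ∞ (fun p => M p i j) := fun i j => contDiff_apply ℝ ℝ (i, j)
  have hdet : ContDiff ℝ ∞ (fun p => (M p).det) := cd_det hM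
  have hM0 : M p0 = 1 := rfl
  have ht : IsOpen {p : Fin n × Fin n → ℝ | 0 < (M p).det} :=
    isOpen_lt continuous_const hdet.continuous
  have key : ∀ b : Fin n × Fin n, ∃ δ > 0, ∀ f : V n → (Fin n × Fin n) → ℝ, ContDiff ℝ ∞ f →
      (∀ a, Cl k δ (fun x => f x a - p0 a)) → (∀ x, f x ∈ {p : Fin n × Fin n → ℝ | 0 < (M p).det}) ∧
        Cl k ε (fun x => (√(M (f x)).det * (M (f x))⁻¹ b.1 b.2
          - (1 : Matrix (Fin n) (Fin n) ℝ) b.1 b.2)) := by
    intro b
    refine small_comp _ ht p0 ?_ (fun p => √(M p).det * (M p)⁻¹ b.1 b.2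
          - (1 : Matrix (Fin n) (Fin n) ℝ) b.1 b.2) ?_ ?_ k ε hε
    · show 0 < (M p0).det
      rw [hM0, Matrix.det_one]; exact one_pos
    · have h1 : (fun p => √(M p).det * (M p)⁻¹ b.1 b.2 - (1 : Matrix (Fin n) (Fin n) ℝ) b.1 b.2) =
          (fun p => √(M p).det * (((M p).det)⁻¹ * (M p).adjugate b.1 b.2)
            - (1 : Matrix (Fin n) (Fin n) ℝ) b.1 b.2) := by
        funext p
        rw [Matrix.inv_def, Ring.inverse_eq_inv', Matrix.smul_apply, smul_eq_mul]
      rw [h1]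
      refine ContDiffOn.sub (ContDiffOn.mul ?_ (ContDiffOn.mul ?_ (cd_adj hM _ _).contDiffOn))
        contDiffOn_const
      · exact hdet.contDiffOn.sqrt fun p hp => ne_of_gt hp
      · exact hdet.contDiffOn.inv fun p hp => ne_of_gt hp
    · simp only [hM0, Matrix.det_one, Real.sqrt_one, inv_one, one_mul, sub_self]
  choose d hd0 hd using key
  obtain ⟨δ, hδ0, hδ⟩ := exists_pos_le d hd0
  refine ⟨δ, hδ0, fun g hg hcl i j => ?_⟩
  have hf : ContDiff ℝ ∞ (fun x => fun a : Fin n × Fin n => g x a.1 a.2) :=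
    contDiff_pi.2 fun a => hg a.1 a.2
  have := (hd (i, j) (fun x => fun a : Fin n × Fin n => g x a.1 a.2) hf
    (fun a => cl_mono (hcl a.1 a.2) (hδ (i, j)))).2
  exact this

theorem cl_pd {k : ℕ} {δ : ℝ} {w : V n → V n} (hw : ContDiff ℝ ∞ w) (h : Cl (k + 1) δ w)
    (i j : Fin n) : Cl k δ (fun x => pd j w x i) := by
  intro l hl x
  let L : (V n →L[ℝ] V n) →L[ℝ] ℝ :=
    (ContinuousLinearMap.proj (R := ℝ) (φ := fun _ : Fin n => ℝ) i).comp
      (ContinuousLinearMap.apply ℝ (V n) (Pi.single j (1 : ℝ)))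
  have hL : ‖L‖ ≤ 1 := by
    refine ContinuousLinearMap.opNorm_le_bound _ zero_le_one fun T => ?_
    have h1 : L T = T (Pi.single j 1) i := rfl
    rw [h1, one_mul]
    refine (norm_le_pi_norm _ i).trans ((T.le_opNorm _).trans ?_)
    rw [Pi.norm_single, norm_one, mul_one]
  have h2 : (fun x => pd j w x i) = L ∘ fderiv ℝ w := rfl
  rw [h2]
  have hfd : ContDiff ℝ ∞ (fderiv ℝ w) := hw.fderiv_right (by simp)
  refine (ContinuousLinearMap.norm_iteratedFDeriv_comp_left L hfd.contDiffAt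
    (by exact_mod_cast le_top)).trans ?_
  rw [norm_iteratedFDeriv_fderiv]
  calc ‖L‖ * ‖iteratedFDeriv ℝ (l + 1) w x‖ ≤ 1 * ‖iteratedFDeriv ℝ (l + 1) w x‖ :=
        mul_le_mul_of_nonneg_right hL (norm_nonneg _)
    _ ≤ δ := by rw [one_mul]; exact h (l + 1) (by omega) x

/-- Row NORM1. -/
theorem norm1 : RowNORM1 := by
  intro n k ε hε
  let J := (Fin n × Fin n) ⊕ (Fin n × Fin n)
  let p0 : J → ℝ := Sum.elim (fun _ => 0) (fun a => (1 : Matrix (Fin n) (Fin n) ℝ) a.1 a.2)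
  let A : (J → ℝ) → Matrix (Fin n) (Fin n) ℝ := fun p => Matrix.of fun i j =>
    (1 : Matrix (Fin n) (Fin n) ℝ) i j + p (Sum.inl (i, j))
  let S : (J → ℝ) → Matrix (Fin n) (Fin n) ℝ := fun p => Matrix.of fun i j => p (Sum.inr (i, j))
  have hA : ∀ i j, ContDiff ℝ ∞ (fun p => A p i j) := fun i j =>
    contDiff_const.add (contDiff_apply ℝ ℝ (Sum.inl (i, j) : J))
  have hS : ∀ i j, ContDiff ℝ ∞ (fun p => S p i j) := fun i j =>
    contDiff_apply ℝ ℝ (Sum.inr (i, j) : J)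
  have hAt : ∀ i j, ContDiff ℝ ∞ (fun p => (A p)ᵀ i j) := fun i j => hA j i
  have hdet : ContDiff ℝ ∞ (fun p => (A p).det) := cd_det hA
  have hA0 : A p0 = 1 := by
    ext i j
    show (1 : Matrix (Fin n) (Fin n) ℝ) i j + 0 = _
    rw [add_zero]
  have hS0 : S p0 = 1 := rfl
  have ht : IsOpen {p : J → ℝ | 0 < (A p).det} := isOpen_lt continuous_const hdet.continuous
  have hΨ : ∀ i j, ContDiffOn ℝ ∞ (fun p => ((A p).det)⁻¹ * (A p * S p * (A p)ᵀ) i j
      - (1 : Matrix (Fin n) (Fin n) ℝ) i j) {p : J → ℝ | 0 < (A p).det} := by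
    intro i j
    refine ContDiffOn.sub (ContDiffOn.mul ?_ (cd_mul (cd_mul hA hS) hAt i j).contDiffOn)
      contDiffOn_const
    exact hdet.contDiffOn.inv fun p hp => ne_of_gt hp
  have key : ∀ b : Fin n × Fin n, ∃ δ > 0, ∀ f : V n → J → ℝ, ContDiff ℝ ∞ f →
      (∀ a, Cl k δ (fun x => f x a - p0 a)) → (∀ x, f x ∈ {p : J → ℝ | 0 < (A p).det}) ∧
        Cl k ε (fun x => ((A (f x)).det)⁻¹ * (A (f x) * S (f x) * (A (f x))ᵀ) b.1 b.2
          - (1 : Matrix (Fin n) (Fin n) ℝ) b.1 b.2) := by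
    intro b
    refine small_comp _ ht p0 ?_ (fun p => ((A p).det)⁻¹ * (A p * S p * (A p)ᵀ) b.1 b.2
          - (1 : Matrix (Fin n) (Fin n) ℝ) b.1 b.2) (hΨ b.1 b.2) ?_ k ε hε
    · show 0 < (A p0).det
      rw [hA0, Matrix.det_one]; exact one_pos
    · simp only [hA0, hS0, Matrix.det_one, inv_one, one_mul, Matrix.transpose_one, sub_self]
  choose d hd0 hd using key
  obtain ⟨δ, hδ0, hδ⟩ := exists_pos_le d hd0
  refine ⟨δ, hδ0, fun Ω s w K C hs hD hK hcs hcw i j => ?_⟩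
  let f : V n → J → ℝ := fun x => Sum.elim (fun a => pd a.2 w x a.1) (fun a => s x a.1 a.2)
  have hfd : ContDiff ℝ ∞ (fderiv ℝ w) := hD.sw.fderiv_right (by simp)
  have hf : ContDiff ℝ ∞ f := by
    refine contDiff_pi.2 fun a => ?_
    rcases a with a | a
    · have h1 : ContDiff ℝ ∞ (fun x => fderiv ℝ w x (Pi.single a.2 1)) :=
        hfd.clm_apply contDiff_const
      exact contDiff_pi.1 h1 a.1
    · exact hs a.1 a.2
  have hcl : ∀ a, Cl k δ (fun x => f x a - p0 a) := by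
    rintro (a | a)
    · have h1 : (fun x => f x (Sum.inl a) - p0 (Sum.inl a)) = fun x => pd a.2 w x a.1 := by
        funext x
        show pd a.2 w x a.1 - 0 = _
        rw [sub_zero]
      rw [h1]
      exact cl_pd hD.sw hcw a.1 a.2
    · exact hcs a.1 a.2
  obtain ⟨h1, h2⟩ := hd (i, j) f hf fun a => cl_mono (hcl a) (hδ (i, j))
  have hsm : ContDiff ℝ ∞ (fun x => ((A (f x)).det)⁻¹ * (A (f x) * S (f x) * (A (f x))ᵀ) i j
          - (1 : Matrix (Fin n) (Fin n) ℝ) i j) := by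
    have := (hΨ i j).comp (s := univ) hf.contDiffOn fun x _ => h1 x
    exact contDiffOn_univ.1 this
  exact hK _ hsm ε h2

end Vale.Agent.P088.LR.H72
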